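import Vale.Agent.P045.Asm

/-!
# P045: Ryser's conjecture is false

For infinitely many `r` there is an intersecting `r`-partite `r`-uniform hypergraph with covering
number `r`, and for every `m ≥ 1` an `r`-partite `r`-uniform hypergraph with matching number `m`
and covering number `r m`.
-/

namespace Vale.Agent.Results.P045.RyserFalse

open Vale.Agent.P045

theorem result :
    (¬ ∀ r : ℕ, 2 ≤ r → ∀ H : PartiteHypergraph r, H.tau ≤ (r - 1) * H.nu) ∧
    (¬ ∀ r : ℕ, 2 ≤ r → ∀ H : PartiteHypergraph r, H.Intersecting → H.tau ≤ r - 1) ∧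
    {r : ℕ | 2 ≤ r ∧ (∃ H : PartiteHypergraph r, H.Intersecting ∧ H.tau = r) ∧
      ∀ m : ℕ, 1 ≤ m → ∃ H : PartiteHypergraph r,
        H.nu = m ∧ H.tau = r * m ∧ ¬ H.tau ≤ (r - 1) * H.nu}.Infinite :=
  ryser_false

end Vale.Agent.Results.P045.RyserFalse
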